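import Vale.Agent.P254.H156.One

/-!
P254, (SP) line: inverse function of the hazard, convexity facts (helper156).
-/

set_option linter.all false

namespace Vale.Agent.P254.H156

open Real Set Filter Topology MeasureTheory
open Vale.Agent.P254.H876 (ph Ph P1 lam m v)

theorem strictMono_of_hasDerivAt {f f' : ℝ → ℝ} (h : ∀ x, HasDerivAt f (f' x) x)
    (h0 : ∀ x, 0 < f' x) : StrictMono f :=
  strictMono_of_deriv_pos fun x => by rw [(h x).deriv]; exact h0 x

theorem lm_strictMono : StrictMono lm := strictMono_of_hasDerivAt hasDerivAt_lm lmnu_pos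
theorem t_strictMono : StrictMono t := strictMono_of_hasDerivAt hasDerivAt_t lm_pos
theorem r_strictMono : StrictMono r := strictMono_of_hasDerivAt hasDerivAt_r r1_pos
theorem r1_strictMono : StrictMono r1 := strictMono_of_hasDerivAt hasDerivAt_r1 r2_pos

theorem lm_continuous : Continuous lm :=
  continuous_iff_continuousAt.2 fun x => (hasDerivAt_lm x).continuousAt
theorem nu_continuous : Continuous nu :=
  continuous_iff_continuousAt.2 fun x => (hasDerivAt_nu x).continuousAt
theorem t_continuous : Continuous t :=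
  continuous_iff_continuousAt.2 fun x => (hasDerivAt_t x).continuousAt
theorem r_continuous : Continuous r :=
  continuous_iff_continuousAt.2 fun x => (hasDerivAt_r x).continuousAt
theorem r1_continuous : Continuous r1 :=
  continuous_iff_continuousAt.2 fun x => (hasDerivAt_r1 x).continuousAt
theorem r2_continuous : Continuous r2 :=
  continuous_iff_continuousAt.2 fun x => (hasDerivAt_r2 x).continuousAt
theorem lmnu_continuous : Continuous fun x => lm x * nu x := lm_continuous.mul nu_continuous

/-- `nu` is decreasing -/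
theorem nu_strictAnti : StrictAnti nu :=
  strictAnti_of_deriv_neg fun x => by
    rw [(hasDerivAt_nu x).deriv]; have := lmnu_lt_one x; linarith

theorem hasDerivAt_lmnu (x : ℝ) :
    HasDerivAt (fun x => lm x * nu x) (lm x * (nu x ^ 2 + lm x * nu x - 1)) x := by
  have h := (hasDerivAt_lm x).mul (hasDerivAt_nu x)
  refine h.congr_deriv ?_
  ring

/-- `lm' = lm * nu` is increasing -/
theorem lmnu_strictMono : StrictMono fun x => lm x * nu x :=
  strictMono_of_hasDerivAt hasDerivAt_lmnu fun x => mul_pos (lm_pos x) (by have := sampford x; linarith)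

theorem exists_lm_eq {y : ℝ} (hy : 0 < y) : ∃ x, lm x = y := by
  have h1 : ∃ a, lm a < y := by
    have := (tendsto_lm_bot.eventually (gt_mem_nhds hy)).exists
    exact this
  obtain ⟨a, ha⟩ := h1
  have h2 : y < lm y := lt_lm y
  have h3 : a < y := by
    by_contra hc
    push Not at hc
    have := lm_strictMono.monotone hc
    linarith
  obtain ⟨x, -, hx⟩ := intermediate_value_Icc h3.le lm_continuous.continuousOn
    (show y ∈ Icc (lm a) (lm y) from ⟨ha.le, h2.le⟩)
  exact ⟨x, hx⟩

/-- inverse function of the hazard -/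
noncomputable def gi (y : ℝ) : ℝ := Function.invFun lm y

theorem gi_lm (x : ℝ) : gi (lm x) = x := Function.leftInverse_invFun lm_strictMono.injective x

theorem lm_gi {y : ℝ} (hy : 0 < y) : lm (gi y) = y := Function.invFun_eq (exists_lm_eq hy)

theorem gi_lt_gi {x y : ℝ} (hx : 0 < x) (hxy : x < y) : gi x < gi y := by
  have := lm_strictMono.lt_iff_lt (a := gi x) (b := gi y)
  rw [lm_gi hx, lm_gi (hx.trans hxy)] at this
  exact this.1 hxy

theorem hasDerivAt_gi {y : ℝ} (hy : 0 < y) : HasDerivAt gi (y * nu (gi y))⁻¹ y := by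
  have h1 := hasDerivAt_lm (gi y)
  have e : lm (gi y) * nu (gi y) = y * nu (gi y) := by rw [lm_gi hy]
  rw [e] at h1
  have hc : ContinuousAt gi y := by
    -- monotone with image a neighborhood
    have hm : StrictMonoOn gi (Ioi 0) := fun a ha b hb hab => gi_lt_gi ha hab
    refine hm.continuousAt_of_image_mem_nhds (Ioi_mem_nhds hy) ?_
    have : gi '' Ioi 0 = univ := by
      ext x
      simp only [mem_image, mem_Ioi, mem_univ, iff_true]
      exact ⟨lm x, lm_pos x, gi_lm x⟩
    rw [this]
    exact univ_mem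
  refine HasDerivAt.of_local_left_inverse hc h1 (by have := nu_pos (gi y); positivity) ?_
  filter_upwards [Ioi_mem_nhds hy] with z hz
  exact lm_gi hz

theorem log_lm (x : ℝ) : Real.log (lm x) = t x - x ^ 2 / 2 - Real.log (2 * π) / 2 := by
  have e : lm x = Real.exp (-(1 / 2) * (-x) ^ 2) / Ph (-x) := rfl
  have h1 : Ph (-x) ≠ 0 := (H876.Ph_pos _).ne'
  rw [e, Real.log_div (Real.exp_pos _).ne' h1, Real.log_exp]
  unfold t Qs
  rw [Real.log_div h1 sqrt_pos'.ne', Real.log_sqrt (by positivity)]
  ring

/-! ### convexity facts -/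

/-- `gi` is concave on `(0, ∞)` -/
theorem gi_concave : ConcaveOn ℝ (Ioi 0) gi := by
  refine AntitoneOn.concaveOn_of_deriv (convex_Ioi 0) ?_ ?_ ?_
  · exact fun y hy => (hasDerivAt_gi hy).continuousAt.continuousWithinAt
  · rw [interior_Ioi]
    exact fun y hy => (hasDerivAt_gi hy).differentiableAt.differentiableWithinAt
  · rw [interior_Ioi]
    intro y hy z hz hyz
    rw [(hasDerivAt_gi hy).deriv, (hasDerivAt_gi hz).deriv]
    rcases eq_or_lt_of_le hyz with rfl | hlt
    · exact le_rfl
    have h1 : gi y < gi z := gi_lt_gi hy hlt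
    have h2 := lmnu_strictMono h1
    simp only [lm_gi (show (0:ℝ) < y from hy), lm_gi (show (0:ℝ) < z from hz)] at h2
    have h3 : 0 < y * nu (gi y) := mul_pos hy (nu_pos _)
    exact inv_anti₀ h3 h2.le

/-- `s ↦ gi (1 / s)` is convex on `(0, ∞)` -/
theorem gi_inv_convex : ConvexOn ℝ (Ioi 0) (fun s => gi (1 / s)) := by
  have hd : ∀ s : ℝ, 0 < s → HasDerivAt (fun s => gi (1 / s)) (-(lm (gi (1 / s)) / nu (gi (1 / s)))) s := by
    intro s hs
    have hs' : (0 : ℝ) < 1 / s := by positivity
    have h1 := (hasDerivAt_gi hs').comp s ((hasDerivAt_inv hs.ne').congr_deriv rfl |>.congr_of_eventuallyEq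
      (Eventually.of_forall fun z => (one_div z)))
    refine h1.congr_deriv ?_
    rw [lm_gi hs']
    have := nu_pos (gi (1 / s))
    field_simp
  refine MonotoneOn.convexOn_of_deriv (convex_Ioi 0) ?_ ?_ ?_
  · exact fun y hy => (hd y hy).continuousAt.continuousWithinAt
  · rw [interior_Ioi]
    exact fun y hy => (hd y hy).differentiableAt.differentiableWithinAt
  · rw [interior_Ioi]
    intro y hy z hz hyz
    rw [(hd y hy).deriv, (hd z hz).deriv]
    have hy' : (0 : ℝ) < y := hy
    have hz' : (0 : ℝ) < z := hz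
    have h0 : (1 : ℝ) / z ≤ 1 / y := one_div_le_one_div_of_le hy' hyz
    have h1 : gi (1 / z) ≤ gi (1 / y) := by
      rcases eq_or_lt_of_le h0 with h | h
      · rw [h]
      · exact (gi_lt_gi (by positivity) h).le
    have h2 := lm_strictMono.monotone h1
    have h3 := nu_strictAnti.antitone h1
    have h4 := lm_pos (gi (1 / z))
    have h5 := nu_pos (gi (1 / y))
    have h6 : lm (gi (1 / z)) / nu (gi (1 / z)) ≤ lm (gi (1 / y)) / nu (gi (1 / y)) :=
      div_le_div₀ (lm_pos _).le h2 h5 h3
    linarith

/-- derivative of `q (m) = m r(gi m)²` in the variable `x = gi m` -/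
noncomputable def qd (x : ℝ) : ℝ := r x ^ 2 + 2 * r x * r1 x / nu x

theorem hasDerivAt_q {y : ℝ} (hy : 0 < y) :
    HasDerivAt (fun m => m * r (gi m) ^ 2) (qd (gi y)) y := by
  have h1 := (hasDerivAt_id y).mul ((((hasDerivAt_r (gi y)).comp y (hasDerivAt_gi hy))).pow 2)
  refine (h1.congr_of_eventuallyEq (Eventually.of_forall fun z => by simp)).congr_deriv ?_
  have := nu_pos (gi y)
  unfold qd
  simp only [id, Function.comp, Pi.pow_apply, Nat.cast_ofNat, Nat.reduceSub, pow_one]
  field_simp

theorem qd_strictMono : StrictMono qd := by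
  intro a b hab
  have h1 := r_strictMono hab
  have h2 := r1_strictMono hab
  have h3 := nu_strictAnti hab
  have h4 := r_pos a
  have h5 := r1_pos a
  have h6 := nu_pos b
  unfold qd
  have h7 : r a ^ 2 < r b ^ 2 := pow_lt_pow_left₀ h1 h4.le (by norm_num)
  have h8 : 2 * r a * r1 a < 2 * r b * r1 b := by nlinarith
  have h9 : 2 * r a * r1 a / nu a < 2 * r b * r1 b / nu b := by
    have h10 : 2 * r a * r1 a / nu a < 2 * r a * r1 a / nu b :=
      div_lt_div_of_pos_left (by positivity) h6 h3
    have h11 : 2 * r a * r1 a / nu b < 2 * r b * r1 b / nu b :=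
      div_lt_div_of_pos_right h8 h6
    linarith
  linarith

theorem qd_pos (x : ℝ) : 0 < qd x := by
  have h4 := r_pos x
  have h5 := r1_pos x
  have h6 := nu_pos x
  unfold qd
  positivity

/-- `q (m) = m r(gi m)²` is convex on `(0, ∞)` -/
theorem q_convex : ConvexOn ℝ (Ioi 0) (fun m => m * r (gi m) ^ 2) := by
  refine MonotoneOn.convexOn_of_deriv (convex_Ioi 0) ?_ ?_ ?_
  · exact fun y hy => (hasDerivAt_q hy).continuousAt.continuousWithinAt
  · rw [interior_Ioi]
    exact fun y hy => (hasDerivAt_q hy).differentiableAt.differentiableWithinAt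
  · rw [interior_Ioi]
    intro y hy z hz hyz
    rw [(hasDerivAt_q hy).deriv, (hasDerivAt_q hz).deriv]
    rcases eq_or_lt_of_le hyz with rfl | hlt
    · exact le_rfl
    exact (qd_strictMono (gi_lt_gi hy hlt)).le

end Vale.Agent.P254.H156
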