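import Vale.Agent.P254.SP.IfaceA
import Vale.Agent.P254.H156.OneF

/-!
P254, (SP) line: the instance of `structure F1` (helper156): `t s = -log (1 - Φ s)`, `L = lm`,
`L' = lm * nu`, `g = gi`, `r`, `r' = r1`, `r'' = r2` of `H156/One.lean`, `H156/OneF.lean`.
-/

namespace Vale.Agent.P254.H156

/-- the one-variable functions of the line (SP_0) -/
noncomputable def F1inst : SP.F1 where
  t := t
  L := lm
  L' := fun x => lm x * nu x
  g := gi
  r := r
  r' := r1
  r'' := r2
  ht := hasDerivAt_t
  hL := hasDerivAt_lm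
  L_pos := lm_pos
  L'_pos := lmnu_pos
  L'_cont := lmnu_continuous
  t_pos := t_pos
  g_L := gi_lm
  L_g := fun _ hm => lm_gi hm
  log_L := log_lm
  r_eq := r_mul_lm
  hr := hasDerivAt_r
  hr' := hasDerivAt_r1
  r''_cont := r2_continuous
  model1 := x_mul_r
  model2 := lm_eq_r
  r'_pos := r1_pos
  r'_lt := r1_lt_half
  r''_pos := r2_pos
  q_convex := q_convex
  g_concave := gi_concave
  g_inv_convex := gi_inv_convex

@[simp] theorem F1inst_t : F1inst.t = t := rfl
@[simp] theorem F1inst_L : F1inst.L = lm := rfl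
@[simp] theorem F1inst_L' : F1inst.L' = fun x => lm x * nu x := rfl
@[simp] theorem F1inst_g : F1inst.g = gi := rfl
@[simp] theorem F1inst_r : F1inst.r = r := rfl
@[simp] theorem F1inst_r' : F1inst.r' = r1 := rfl
@[simp] theorem F1inst_r'' : F1inst.r'' = r2 := rfl

end Vale.Agent.P254.H156
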