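import Vale.Agent.P254.H876.Gauss

/-!
P254, (SP) line: the one-variable library (helper156).

`Qs x = P(g > x)`, `t = -log Qs`, `lm = t'` (hazard of the Gaussian), `nu x = lm x - x`,
`r = t / lm`, `r1 = r'`, `r2 = r''`.
-/

set_option linter.all false

namespace Vale.Agent.P254.H156

open Real Set Filter Topology MeasureTheory
open Vale.Agent.P254.H876 (ph Ph P1 lam m v)

/-- survival function of the standard Gaussian -/
noncomputable def Qs (x : ℝ) : ℝ := Ph (-x) / √(2 * π)
/-- the monotone map of the standard Gaussian onto the exponential law -/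
noncomputable def t (x : ℝ) : ℝ := -Real.log (Qs x)
/-- hazard -/
noncomputable def lm (x : ℝ) : ℝ := lam (-x)
noncomputable def nu (x : ℝ) : ℝ := m (-x)
noncomputable def r (x : ℝ) : ℝ := t x / lm x
noncomputable def r1 (x : ℝ) : ℝ := 1 - r x * nu x
noncomputable def r2 (x : ℝ) : ℝ := r x * (1 - x * nu x) - nu x

theorem lm_pos (x : ℝ) : 0 < lm x := H876.lam_pos _
theorem nu_pos (x : ℝ) : 0 < nu x := H876.m_pos _
theorem nu_eq (x : ℝ) : nu x = lm x - x := by
  unfold nu lm; rw [H876.m_eq]; ring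
theorem lm_eq (x : ℝ) : lm x = nu x + x := by rw [nu_eq]; ring
theorem lt_lm (x : ℝ) : x < lm x := by have := nu_pos x; rw [nu_eq] at this; linarith
/-- `lm' < 1` -/
theorem lmnu_lt_one (x : ℝ) : lm x * nu x < 1 := by
  have := H876.v_pos (-x)
  unfold v at this
  unfold lm nu
  linarith
theorem lmnu_pos (x : ℝ) : 0 < lm x * nu x := mul_pos (lm_pos x) (nu_pos x)
/-- Sampford's inequality (convexity of the hazard) -/
theorem sampford (x : ℝ) : 1 < nu x ^ 2 + lm x * nu x := by
  have := H876.qv_pos (-x)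
  unfold v at this
  unfold lm nu
  linarith
theorem x_mul_nu (x : ℝ) : x * nu x = lm x * nu x - nu x ^ 2 := by rw [lm_eq]; ring
theorem one_sub_x_mul_nu_pos (x : ℝ) : 0 < 1 - x * nu x := by
  have h := lmnu_lt_one x
  have h2 : 0 < nu x ^ 2 := pow_pos (nu_pos x) 2
  rw [x_mul_nu]
  linarith

theorem hasDerivAt_neg' (x : ℝ) : HasDerivAt (fun x : ℝ => -x) (-1) x := by
  exact hasDerivAt_neg x

theorem hasDerivAt_lm (x : ℝ) : HasDerivAt lm (lm x * nu x) x := by
  have h := (H876.hasDerivAt_lam (-x)).comp x (hasDerivAt_neg' x)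
  refine h.congr_deriv ?_
  unfold lm nu
  ring

theorem hasDerivAt_nu (x : ℝ) : HasDerivAt nu (lm x * nu x - 1) x := by
  have h := (H876.hasDerivAt_m (-x)).comp x (hasDerivAt_neg' x)
  refine h.congr_deriv ?_
  unfold lm nu v
  ring

theorem sqrt_pos' : 0 < √(2 * π) := Real.sqrt_pos.2 (by positivity)

theorem Qs_pos (x : ℝ) : 0 < Qs x := div_pos (H876.Ph_pos _) sqrt_pos'

theorem Ph_lt (c : ℝ) : Ph c < √(2 * π) := by
  have h1 : Ph c < Ph (c + 1) := H876.Ph_mono (by linarith)
  have h2 : Ph (c + 1) ≤ √(2 * π) := H876.Ph_mono.monotone.ge_of_tendsto H876.tendsto_Ph_top _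
  linarith

theorem Qs_lt_one (x : ℝ) : Qs x < 1 := by
  unfold Qs
  rw [div_lt_one sqrt_pos']
  exact Ph_lt _

theorem t_pos (x : ℝ) : 0 < t x := by
  unfold t
  have := Real.log_neg (Qs_pos x) (Qs_lt_one x)
  linarith

theorem hasDerivAt_Qs (x : ℝ) : HasDerivAt Qs (-(lm x * Qs x)) x := by
  have h := ((H876.hasDerivAt_Ph (-x)).comp x (hasDerivAt_neg' x)).div_const (√(2 * π))
  refine h.congr_deriv ?_
  unfold lm Qs
  rw [← H876.lam_mul_Ph]
  ring

theorem hasDerivAt_t (x : ℝ) : HasDerivAt t (lm x) x := by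
  have h := ((hasDerivAt_Qs x).log (Qs_pos x).ne').neg
  refine h.congr_deriv ?_
  have := (Qs_pos x).ne'
  field_simp

theorem r_pos (x : ℝ) : 0 < r x := div_pos (t_pos x) (lm_pos x)

theorem r_mul_lm (x : ℝ) : r x * lm x = t x := by
  have := (lm_pos x).ne'
  unfold r
  field_simp

theorem hasDerivAt_r (x : ℝ) : HasDerivAt r (r1 x) x := by
  have h := (hasDerivAt_t x).div (hasDerivAt_lm x) (lm_pos x).ne'
  refine h.congr_deriv ?_
  have := (lm_pos x).ne'
  unfold r1 r
  field_simp

theorem hasDerivAt_r1 (x : ℝ) : HasDerivAt r1 (r2 x) x := by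
  have h := ((hasDerivAt_r x).mul (hasDerivAt_nu x)).const_sub 1
  refine h.congr_deriv ?_
  unfold r2 r1
  rw [lm_eq]
  ring

/-- third derivative of `r` -/
noncomputable def r3 (x : ℝ) : ℝ :=
  r1 x * (1 - x * nu x) + r x * (x * (1 - lm x * nu x) - nu x) + (1 - lm x * nu x)

theorem hasDerivAt_r2 (x : ℝ) : HasDerivAt r2 (r3 x) x := by
  have h := ((hasDerivAt_r x).mul (((hasDerivAt_id x).mul (hasDerivAt_nu x)).const_sub 1)).sub
    (hasDerivAt_nu x)
  refine h.congr_deriv ?_
  unfold r3
  simp only [id, Pi.mul_apply]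
  ring

/-- model identity `D^* r = t - 1` -/
theorem x_mul_r (x : ℝ) : x * r x - r1 x = t x - 1 := by
  unfold r1
  rw [← r_mul_lm x, nu_eq]
  ring

/-- model identity `(1 + N) r = t'` -/
theorem lm_eq_r (x : ℝ) : lm x = r x + x * r1 x - r2 x := by
  unfold r2 r1
  rw [nu_eq]
  ring

/-! ### limits at `-∞` -/

theorem tendsto_neg_bot : Tendsto (fun x : ℝ => -x) atBot atTop := tendsto_neg_atBot_atTop

theorem tendsto_lm_bot : Tendsto lm atBot (𝓝 0) := H876.tendsto_lam_top.comp tendsto_neg_bot

theorem tendsto_lmnu_bot : Tendsto (fun x => lm x * nu x) atBot (𝓝 0) := by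
  have h := (H876.tendsto_v_top.comp tendsto_neg_bot).const_sub 1
  simp only [sub_self] at h
  refine h.congr fun x => ?_
  simp only [Function.comp, v, lm, nu]
  ring

theorem tendsto_nu_bot : Tendsto nu atBot atTop :=
  tendsto_atTop_mono (fun x => by have := lm_pos x; rw [nu_eq]; linarith) tendsto_neg_bot

theorem tendsto_Qs_bot : Tendsto Qs atBot (𝓝 1) := by
  have h := (H876.tendsto_Ph_top.comp tendsto_neg_bot).div_const (√(2 * π))
  rw [div_self sqrt_pos'.ne'] at h
  exact h

theorem tendsto_t_bot : Tendsto t atBot (𝓝 0) := by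
  have h := (tendsto_Qs_bot.log one_ne_zero).neg
  simp only [Real.log_one, neg_zero] at h
  exact h

theorem tendsto_inv_nu_bot : Tendsto (fun x => (nu x)⁻¹) atBot (𝓝 0) :=
  tendsto_inv_atTop_zero.comp tendsto_nu_bot

/-! ### `0 < r' < 1/2` -/

theorem t_lt (x : ℝ) : t x < lm x / nu x := by
  have key : 0 < lm x / nu x - t x := by
    refine H876.pos_of_deriv_pos (f := fun x => lm x / nu x - t x)
      (f' := fun x => lm x * (1 - lm x * nu x) / nu x ^ 2) (c := x) ?_ ?_ ?_
    · intro y _
      have h := ((hasDerivAt_lm y).div (hasDerivAt_nu y) (nu_pos y).ne').sub (hasDerivAt_t y)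
      refine h.congr_deriv ?_
      have := (nu_pos y).ne'
      field_simp
      ring
    · intro y _
      have h1 := lm_pos y
      have h2 := lmnu_lt_one y
      have h3 := nu_pos y
      have h4 : 0 < 1 - lm y * nu y := by linarith
      positivity
    · have h := (tendsto_lm_bot.mul tendsto_inv_nu_bot).sub tendsto_t_bot
      simpa [div_eq_mul_inv] using h
  linarith

theorem lt_t (x : ℝ) : lm x / nu x / 2 < t x := by
  have key : 0 < 2 * t x - lm x / nu x := by
    refine H876.pos_of_deriv_pos (f := fun x => 2 * t x - lm x / nu x)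
      (f' := fun x => lm x * (nu x ^ 2 + lm x * nu x - 1) / nu x ^ 2) (c := x) ?_ ?_ ?_
    · intro y _
      have h := ((hasDerivAt_t y).const_mul 2).sub
        ((hasDerivAt_lm y).div (hasDerivAt_nu y) (nu_pos y).ne')
      refine h.congr_deriv ?_
      have := (nu_pos y).ne'
      field_simp
      ring
    · intro y _
      have h1 := lm_pos y
      have h2 := sampford y
      have h3 := nu_pos y
      have h4 : 0 < nu y ^ 2 + lm y * nu y - 1 := by linarith
      positivity
    · have h := (tendsto_t_bot.const_mul 2).sub (tendsto_lm_bot.mul tendsto_inv_nu_bot)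
      simpa [div_eq_mul_inv] using h
  linarith

theorem r_nu_lt_one (x : ℝ) : r x * nu x < 1 := by
  have h := t_lt x
  rw [lt_div_iff₀ (nu_pos x), ← r_mul_lm x] at h
  have h3 := lm_pos x
  have h4 : lm x * (r x * nu x) < lm x * 1 := by linarith
  exact lt_of_mul_lt_mul_left h4 h3.le

theorem half_lt_r_nu (x : ℝ) : 1 / 2 < r x * nu x := by
  have h := lt_t x
  rw [div_div, div_lt_iff₀ (mul_pos (nu_pos x) two_pos), ← r_mul_lm x] at h
  have h3 := lm_pos x
  have h4 : lm x * (1 / 2) < lm x * (r x * nu x) := by linarith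
  exact lt_of_mul_lt_mul_left h4 h3.le

theorem r1_pos (x : ℝ) : 0 < r1 x := by
  have := r_nu_lt_one x
  unfold r1
  linarith

theorem r1_lt_half (x : ℝ) : r1 x < 1 / 2 := by
  have := half_lt_r_nu x
  unfold r1
  linarith

/-! ### `0 < r''` -/

/-- third order inequality for the truncated Gaussian -/
theorem P_pos (x : ℝ) : 0 < (1 - lm x * nu x) * (2 - lm x * nu x) - nu x ^ 2 * (lm x * nu x) := by
  have key : ∀ c : ℝ, 0 < (v c + v c ^ 2 - lam c * m c ^ 3) * Ph c := by
    intro c
    refine H876.pos_of_deriv_pos (f := fun c => (v c + v c ^ 2 - lam c * m c ^ 3) * Ph c)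
      (f' := fun c => lam c * Ph c * (m c ^ 4 - v c ^ 2)) (c := c) ?_ ?_ ?_
    · intro y _
      have h := (((H876.hasDerivAt_v y).add ((H876.hasDerivAt_v y).pow 2)).sub
        ((H876.hasDerivAt_lam y).mul ((H876.hasDerivAt_m y).pow 3))).mul (H876.hasDerivAt_Ph y)
      refine h.congr_deriv ?_
      rw [← H876.lam_mul_Ph]
      simp only [Nat.cast_ofNat, Nat.reduceSub, pow_one, Pi.sub_apply, Pi.pow_apply, Pi.add_apply,
        Pi.mul_apply]
      unfold v
      ring
    · intro y _
      have h1 := H876.lam_pos y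
      have h2 := H876.Ph_pos y
      have h3 := H876.qv_pos y
      have h4 := H876.v_pos y
      have h5 : 0 < m y ^ 4 - v y ^ 2 := by
        have : m y ^ 4 - v y ^ 2 = (m y ^ 2 - v y) * (m y ^ 2 + v y) := by ring
        rw [this]
        have : 0 < m y ^ 2 := pow_pos (H876.m_pos y) 2
        exact mul_pos h3 (by linarith)
      positivity
    · refine H876.tendsto_bdd_mul_Ph (C := 3) fun c hc => ?_
      have h1 := H876.abs_v_le hc
      have h2 := H876.m_lt_one hc
      have h3 := H876.m_pos c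
      have h4 := H876.v_pos c
      have h5 : lam c * m c ≤ 1 := by have := h4; unfold v at this; linarith
      have h6 : 0 < lam c * m c := mul_pos (H876.lam_pos c) h3
      have h7 : lam c * m c ^ 3 = (lam c * m c) * m c ^ 2 := by ring
      have h8 : m c ^ 2 ≤ 1 := by nlinarith
      have h9 : 0 ≤ m c ^ 2 := by positivity
      have h10 : (lam c * m c) * m c ^ 2 ≤ 1 := by nlinarith
      have h11 : 0 ≤ (lam c * m c) * m c ^ 2 := by positivity
      rw [abs_le] at h1 ⊢
      rw [h7]
      constructor <;> nlinarith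
  have h := (pos_iff_pos_of_mul_pos (key (-x))).2 (H876.Ph_pos _)
  have e : (1 - lm x * nu x) * (2 - lm x * nu x) - nu x ^ 2 * (lm x * nu x)
      = v (-x) + v (-x) ^ 2 - lam (-x) * m (-x) ^ 3 := by
    unfold lm nu v
    ring
  rw [e]
  exact h

theorem hasDerivAt_frac (x : ℝ) : HasDerivAt (fun x => lm x * nu x / (1 - x * nu x))
    (lm x - lm x * ((1 - lm x * nu x) * (2 - lm x * nu x) - nu x ^ 2 * (lm x * nu x))
      / (1 - x * nu x) ^ 2) x := by
  have hb := (one_sub_x_mul_nu_pos x).ne'
  have h := ((hasDerivAt_lm x).mul (hasDerivAt_nu x)).div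
    (((hasDerivAt_id x).mul (hasDerivAt_nu x)).const_sub 1) (by simpa using hb)
  refine h.congr_deriv ?_
  simp only [id, Pi.mul_apply]
  have e : lm x - lm x * ((1 - lm x * nu x) * (2 - lm x * nu x) - nu x ^ 2 * (lm x * nu x))
      / (1 - x * nu x) ^ 2 = (lm x * (1 - x * nu x) ^ 2
        - lm x * ((1 - lm x * nu x) * (2 - lm x * nu x) - nu x ^ 2 * (lm x * nu x)))
      / (1 - x * nu x) ^ 2 := by
    rw [sub_div, mul_div_assoc (lm x) ((1 - x * nu x) ^ 2), div_self (pow_ne_zero 2 hb), mul_one]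
  rw [e]
  congr 1
  rw [lm_eq]
  ring

theorem tendsto_frac_bot : Tendsto (fun x => lm x * nu x / (1 - x * nu x)) atBot (𝓝 0) := by
  refine squeeze_zero' (Eventually.of_forall fun x => ?_) ?_ tendsto_lmnu_bot
  · exact (div_pos (lmnu_pos x) (one_sub_x_mul_nu_pos x)).le
  · filter_upwards [eventually_le_atBot 0] with x hx
    have h1 := nu_pos x
    have h2 := lmnu_pos x
    have h3 : 1 ≤ 1 - x * nu x := by nlinarith
    exact div_le_self h2.le h3

theorem frac_lt_t (x : ℝ) : lm x * nu x / (1 - x * nu x) < t x := by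
  have key : 0 < t x - lm x * nu x / (1 - x * nu x) := by
    refine H876.pos_of_deriv_pos (f := fun x => t x - lm x * nu x / (1 - x * nu x))
      (f' := fun x => lm x * ((1 - lm x * nu x) * (2 - lm x * nu x) - nu x ^ 2 * (lm x * nu x))
      / (1 - x * nu x) ^ 2) (c := x) ?_ ?_ ?_
    · intro y _
      refine ((hasDerivAt_t y).sub (hasDerivAt_frac y)).congr_deriv ?_
      ring
    · intro y _
      have h1 := lm_pos y
      have h2 := P_pos y
      have h3 := one_sub_x_mul_nu_pos y
      positivity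
    · simpa using tendsto_t_bot.sub tendsto_frac_bot
  linarith

theorem r2_pos (x : ℝ) : 0 < r2 x := by
  have h := frac_lt_t x
  have hb := one_sub_x_mul_nu_pos x
  rw [div_lt_iff₀ hb] at h
  have h3 := lm_pos x
  have h4 : 0 < lm x * r2 x := by
    have : lm x * r2 x = t x * (1 - x * nu x) - lm x * nu x := by
      unfold r2
      rw [← r_mul_lm x]
      ring
    rw [this]
    linarith
  exact (pos_iff_pos_of_mul_pos h4).1 h3

end Vale.Agent.P254.H156
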