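import Vale.Agent.P254.H156.OneF

/-!
P254, (SP) line: `r'' < 1/10` (helper156).

`n = nu`, `c = 1 - lm nu`, `q = n² - c`.  The first order barrier `t < lm (nu + 1/10) / (1 - x nu)`
reduces to `F (n, c) > 0`, and `F = 0` implies `F' < 0`.
-/

set_option linter.all false

namespace Vale.Agent.P254.H156

open Real Set Filter Topology MeasureTheory
open Vale.Agent.P254.H876 (ph Ph P1 lam m v)

theorem Phi_pos {z p : ℝ} (hz : 0 ≤ z) (hz1 : z ≤ 1) (hp : 0 ≤ p) :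
    0 < z ^ 2 * p ^ 3 + (4 + 15 * z ^ 2 / 4) * p ^ 2 + (35 / 4 + 3 * z ^ 2) * p + 6 - z ^ 2
      - z * (p + 89 / 25) / (16 / 5) * ((45 / 2 - 5 * z ^ 2 / 2) * p - 5 * z ^ 2) := by
  set A : ℝ := 4 - 225 / 32 * z + 85 / 12 * z ^ 2 + 25 / 32 * z ^ 3 with hAdef
  set B : ℝ := 35 / 4 - 801 / 32 * z + 2 / 9 * z ^ 2 + 139 / 32 * z ^ 3 with hBdef
  set C : ℝ := 6 - z ^ 2 + 89 / 16 * z ^ 3 with hCdef
  have h1z : 0 ≤ 1 - z := by linarith
  have hA : 0 < A := by
    rcases eq_or_lt_of_le hz with h0 | h0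
    · rw [hAdef, ← h0]; norm_num
    have e : A = 4 * (z ^ 0 * (1 - z) ^ 3) + 159/32 * (z ^ 1 * (1 - z) ^ 2)
      + 241/48 * (z ^ 2 * (1 - z) ^ 1) + 29/6 * (z ^ 3 * (1 - z) ^ 0) := by rw [hAdef]; ring
    rw [e]
    have : 0 < z ^ 3 * (1 - z) ^ 0 := by positivity
    positivity
  have hD : 0 < 4 * A * C - B ^ 2 := by
    rcases eq_or_lt_of_le hz with h0 | h0
    · rw [hAdef, hBdef, hCdef, ← h0]; norm_num
    have e : 4 * A * C - B ^ 2 = 311/16 * (z ^ 0 * (1 - z) ^ 8) + 27187/64 * (z ^ 1 * (1 - z) ^ 7)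
      + 17997703/9216 * (z ^ 2 * (1 - z) ^ 6) + 6076423/1536 * (z ^ 3 * (1 - z) ^ 5)
      + 333997487/82944 * (z ^ 4 * (1 - z) ^ 4) + 41010821/20736 * (z ^ 5 * (1 - z) ^ 3)
      + 2864947/6912 * (z ^ 6 * (1 - z) ^ 2) + 632369/5184 * (z ^ 7 * (1 - z) ^ 1)
      + 1388495/20736 * (z ^ 8 * (1 - z) ^ 0) := by rw [hAdef, hBdef, hCdef]; ring
    rw [e]
    have : 0 < z ^ 8 * (1 - z) ^ 0 := by positivity
    positivity
  have h1 : 0 ≤ z ^ 2 * (p * (p - 5 / 3) ^ 2) := by positivity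
  have h2 : 0 < A * p ^ 2 + B * p + C := by
    have h3 : 0 < 4 * A * (A * p ^ 2 + B * p + C) := by
      have e : 4 * A * (A * p ^ 2 + B * p + C) = (2 * A * p + B) ^ 2 + (4 * A * C - B ^ 2) := by ring
      rw [e]
      have := sq_nonneg (2 * A * p + B)
      linarith
    exact (pos_iff_pos_of_mul_pos h3).1 (by positivity)
  have e : z ^ 2 * p ^ 3 + (4 + 15 * z ^ 2 / 4) * p ^ 2 + (35 / 4 + 3 * z ^ 2) * p + 6 - z ^ 2
      - z * (p + 89 / 25) / (16 / 5) * ((45 / 2 - 5 * z ^ 2 / 2) * p - 5 * z ^ 2)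
      = z ^ 2 * (p * (p - 5 / 3) ^ 2) + (A * p ^ 2 + B * p + C) := by
    rw [hAdef, hBdef, hCdef]; ring
  rw [e]
  linarith

/-- the barrier polynomial -/
def FF (n c : ℝ) : ℝ :=
  (n ^ 2 - c) ^ 2 + (1 + 4 * c) * (n ^ 2 - c) + 4 * c ^ 2
    + 10 * n * ((1 - c) * (n ^ 2 - c) - 2 * c ^ 2)

theorem Hk_pos {n c : ℝ} (hn : 0 < n) (hc : 0 < c) (hc1 : c < 1) (hq : 0 < n ^ 2 - c) :
    0 < (n ^ 2 - c) ^ 3 + 4 * (1 + c) * (n ^ 2 - c) ^ 2 + c * (9 + 4 * c) * (n ^ 2 - c) + 6 * c ^ 2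
      - 20 * c * n * (n ^ 2 - c) - 1 / 4 * c * FF n c := by
  obtain ⟨z, hz, rfl⟩ : ∃ z : ℝ, 0 < z ∧ z ^ 2 = c := ⟨√c, Real.sqrt_pos.2 hc, Real.sq_sqrt hc.le⟩
  have hz1 : z ≤ 1 := by nlinarith
  obtain ⟨p, hp⟩ : ∃ p : ℝ, n ^ 2 - z ^ 2 = z ^ 2 * p := ⟨(n ^ 2 - z ^ 2) / z ^ 2, by field_simp⟩
  have hp0 : 0 < p := by
    rw [hp] at hq
    exact (pos_iff_pos_of_mul_pos hq).1 (by positivity)
  have hn2 : n ^ 2 = z ^ 2 * (p + 1) := by linarith
  have key : (n ^ 2 - z ^ 2) ^ 3 + 4 * (1 + z ^ 2) * (n ^ 2 - z ^ 2) ^ 2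
      + z ^ 2 * (9 + 4 * z ^ 2) * (n ^ 2 - z ^ 2) + 6 * (z ^ 2) ^ 2
      - 20 * z ^ 2 * n * (n ^ 2 - z ^ 2) - 1 / 4 * z ^ 2 * FF n (z ^ 2)
      = z ^ 4 * (z ^ 2 * p ^ 3 + (4 + 15 * z ^ 2 / 4) * p ^ 2 + (35 / 4 + 3 * z ^ 2) * p + 6 - z ^ 2
        - n * ((45 / 2 - 5 * z ^ 2 / 2) * p - 5 * z ^ 2)) := by
    unfold FF
    rw [hp]
    ring
  rw [key]
  refine mul_pos (by positivity) ?_
  by_cases hB : 0 ≤ (45 / 2 - 5 * z ^ 2 / 2) * p - 5 * z ^ 2
  · have h1 := Phi_pos hz.le hz1 hp0.le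
    have h2 : n ≤ z * (p + 89 / 25) / (16 / 5) := by
      rw [le_div_iff₀ (by norm_num)]
      have h3 : 0 ≤ (n - 8 / 5 * z) ^ 2 := sq_nonneg _
      have h4 : z * (n * (16 / 5)) ≤ z * (z * (p + 89 / 25)) := by nlinarith
      exact le_of_mul_le_mul_left h4 hz
    have h5 := mul_le_mul_of_nonneg_right h2 hB
    linarith
  · push Not at hB
    have h1 : n * ((45 / 2 - 5 * z ^ 2 / 2) * p - 5 * z ^ 2) ≤ 0 :=
      mul_nonpos_of_nonneg_of_nonpos hn.le hB.le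
    have h2 : 0 ≤ z ^ 2 * p ^ 3 := by positivity
    have h3 : 0 ≤ (4 + 15 * z ^ 2 / 4) * p ^ 2 := by positivity
    have h4 : 0 ≤ (35 / 4 + 3 * z ^ 2) * p := by positivity
    nlinarith

/-- `c = 1 - lm nu` (variance of the truncated Gaussian) -/
noncomputable def cc (x : ℝ) : ℝ := 1 - lm x * nu x

theorem cc_pos (x : ℝ) : 0 < cc x := by have := lmnu_lt_one x; unfold cc; linarith
theorem cc_lt_one (x : ℝ) : cc x < 1 := by have := lmnu_pos x; unfold cc; linarith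
theorem q_pos (x : ℝ) : 0 < nu x ^ 2 - cc x := by have := sampford x; unfold cc; linarith
theorem lm_mul_nu (x : ℝ) : lm x * nu x = 1 - cc x := by unfold cc; ring
theorem b_eq (x : ℝ) : 1 - x * nu x = nu x ^ 2 + cc x := by unfold cc; rw [x_mul_nu]; ring

theorem hasDerivAt_nu' (x : ℝ) : HasDerivAt nu (-cc x) x :=
  (hasDerivAt_nu x).congr_deriv (by unfold cc; ring)

theorem hasDerivAt_cc (x : ℝ) : HasDerivAt cc (-(lm x * (nu x ^ 2 - cc x))) x := by
  refine ((hasDerivAt_lmnu x).const_sub 1).congr_deriv ?_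
  unfold cc
  ring

theorem tendsto_cc_top : Tendsto cc atTop (𝓝 0) := by
  have h := H876.tendsto_v_bot.comp tendsto_neg_atTop_atBot
  refine h.congr fun x => ?_
  rfl

theorem hasDerivAt_FF (x : ℝ) : HasDerivAt (fun x => FF (nu x) (cc x))
    ((4 * nu x ^ 3 + 30 * (1 - cc x) * nu x ^ 2 + 2 * (1 + 2 * cc x) * nu x
        - 10 * cc x * (1 + cc x)) * (-cc x)
      + (-10 * nu x ^ 3 + 2 * nu x ^ 2 - 10 * (1 + 2 * cc x) * nu x - (1 - 2 * cc x))
        * (-(lm x * (nu x ^ 2 - cc x)))) x := by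
  have hn := hasDerivAt_nu' x
  have hc := hasDerivAt_cc x
  have h1 := (hn.pow 2).sub hc
  have h2 := ((h1.pow 2).add (((hc.const_mul 4).const_add 1).mul h1)).add ((hc.pow 2).const_mul 4)
  have h3 := (hn.const_mul 10).mul (((hc.const_sub 1).mul h1).sub ((hc.pow 2).const_mul 2))
  have h4 := h2.add h3
  refine (h4.congr_of_eventuallyEq (Eventually.of_forall fun y => ?_)).congr_deriv ?_
  · simp [FF]
  · simp only [Pi.add_apply, Pi.mul_apply, Pi.sub_apply, Pi.pow_apply, Nat.cast_ofNat,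
      Nat.reduceSub, pow_one]
    ring

/-- at a zero of `FF` the derivative is negative -/
theorem FF_deriv_neg {x : ℝ} (h0 : FF (nu x) (cc x) = 0) :
    ((4 * nu x ^ 3 + 30 * (1 - cc x) * nu x ^ 2 + 2 * (1 + 2 * cc x) * nu x
        - 10 * cc x * (1 + cc x)) * (-cc x)
      + (-10 * nu x ^ 3 + 2 * nu x ^ 2 - 10 * (1 + 2 * cc x) * nu x - (1 - 2 * cc x))
        * (-(lm x * (nu x ^ 2 - cc x)))) < 0 := by
  have hn := nu_pos x
  have hk := Hk_pos hn (cc_pos x) (cc_lt_one x) (q_pos x)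
  rw [h0] at hk
  have hl := lm_mul_nu x
  set n := nu x
  set c := cc x
  set l := lm x
  -- multiply by n
  have h1 : n * ((4 * n ^ 3 + 30 * (1 - c) * n ^ 2 + 2 * (1 + 2 * c) * n
        - 10 * c * (1 + c)) * (-c)
      + (-10 * n ^ 3 + 2 * n ^ 2 - 10 * (1 + 2 * c) * n - (1 - 2 * c))
        * (-(l * (n ^ 2 - c)))) =
      -((n ^ 2 - c) ^ 3 + 4 * (1 + c) * (n ^ 2 - c) ^ 2 + c * (9 + 4 * c) * (n ^ 2 - c) + 6 * c ^ 2
      - 20 * c * n * (n ^ 2 - c)) - (2 * c - (n ^ 2 - c) - 1) * FF n c := by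
    unfold FF
    linear_combination (-(-10 * n ^ 3 + 2 * n ^ 2 - 10 * (1 + 2 * c) * n - (1 - 2 * c))
      * (n ^ 2 - c)) * hl
  rw [h0] at h1
  have h2 : n * ((4 * n ^ 3 + 30 * (1 - c) * n ^ 2 + 2 * (1 + 2 * c) * n
        - 10 * c * (1 + c)) * (-c)
      + (-10 * n ^ 3 + 2 * n ^ 2 - 10 * (1 + 2 * c) * n - (1 - 2 * c))
        * (-(l * (n ^ 2 - c)))) < 0 := by
    rw [h1]
    linarith
  by_contra hc
  push Not at hc
  have := mul_nonneg hn.le hc
  linarith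

theorem FF_pos_of_small {x : ℝ} (hx : cc x < 1 / 30) : 0 < FF (nu x) (cc x) := by
  have hn := nu_pos x
  have hc := cc_pos x
  have hq := q_pos x
  unfold FF
  set n := nu x
  set c := cc x
  by_cases hD : 0 ≤ (1 - c) * (n ^ 2 - c) - 2 * c ^ 2
  · have h1 : 0 ≤ 10 * n * ((1 - c) * (n ^ 2 - c) - 2 * c ^ 2) := mul_nonneg (by positivity) hD
    have h2 : 0 < (n ^ 2 - c) ^ 2 := by positivity
    have h3 : 0 ≤ (1 + 4 * c) * (n ^ 2 - c) := mul_nonneg (by linarith) hq.le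
    have h4 : 0 ≤ 4 * c ^ 2 := by positivity
    linarith
  · push Not at hD
    have h5 : n ^ 2 < 1 / 25 := by nlinarith
    have h6 : n < 1 / 5 := by
      by_contra h
      push Not at h
      nlinarith
    have h7 : 10 * n * (2 * c ^ 2) ≤ 4 * c ^ 2 := by nlinarith [sq_nonneg c]
    have h8 : 0 ≤ 10 * n * ((1 - c) * (n ^ 2 - c)) :=
      mul_nonneg (by positivity) (mul_nonneg (by linarith) hq.le)
    have h9 : 0 < (1 + 4 * c) * (n ^ 2 - c) := mul_pos (by linarith) hq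
    have h10 := sq_nonneg (n ^ 2 - c)
    nlinarith

/-- the barrier polynomial is positive along the curve -/
theorem FF_pos (x : ℝ) : 0 < FF (nu x) (cc x) := by
  by_contra hc
  push Not at hc
  obtain ⟨y, hxy, hy⟩ : ∃ y, x < y ∧ cc y < 1 / 30 :=
    ((eventually_gt_atTop x).and
      (tendsto_cc_top.eventually (gt_mem_nhds (by norm_num : (0:ℝ) < 1 / 30)))).exists
  have h := image_le_of_deriv_right_lt_deriv_boundary (f := fun x => FF (nu x) (cc x))
    (f' := fun x => ((4 * nu x ^ 3 + 30 * (1 - cc x) * nu x ^ 2 + 2 * (1 + 2 * cc x) * nu x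
        - 10 * cc x * (1 + cc x)) * (-cc x)
      + (-10 * nu x ^ 3 + 2 * nu x ^ 2 - 10 * (1 + 2 * cc x) * nu x - (1 - 2 * cc x))
        * (-(lm x * (nu x ^ 2 - cc x))))) (a := x) (b := y)
    (fun z _ => (hasDerivAt_FF z).continuousAt.continuousWithinAt)
    (fun z _ => (hasDerivAt_FF z).hasDerivWithinAt)
    (B := fun _ => 0) (B' := fun _ => 0) hc (fun z => hasDerivAt_const z 0)
    (fun z _ hz => FF_deriv_neg hz) (show y ∈ Icc x y from ⟨hxy.le, le_rfl⟩)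
  have h2 := FF_pos_of_small hy
  linarith

/-- `r'' < 1/10` -/
theorem t_lt_frac (x : ℝ) : t x < lm x * (nu x + 1 / 10) / (nu x ^ 2 + cc x) := by
  have key : 0 < lm x * (nu x + 1 / 10) / (nu x ^ 2 + cc x) - t x := by
    refine H876.pos_of_deriv_pos (f := fun x => lm x * (nu x + 1 / 10) / (nu x ^ 2 + cc x) - t x)
      (f' := fun x => lm x * FF (nu x) (cc x) / (10 * nu x) / (nu x ^ 2 + cc x) ^ 2) (c := x) ?_ ?_ ?_
    · intro y _
      have hb : nu y ^ 2 + cc y ≠ 0 := by have := cc_pos y; positivity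
      have h := (((hasDerivAt_lm y).mul ((hasDerivAt_nu' y).add_const (1 / 10))).div
        (((hasDerivAt_nu' y).pow 2).add (hasDerivAt_cc y)) hb).sub (hasDerivAt_t y)
      refine h.congr_deriv ?_
      simp only [Pi.add_apply, Pi.mul_apply, Pi.pow_apply, Nat.cast_ofNat, Nat.reduceSub, pow_one]
      have hl := lm_mul_nu y
      have hn := (nu_pos y).ne'
      have hl2 : lm y = (1 - cc y) / nu y := by rw [← hl]; field_simp
      rw [hl2]
      unfold FF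
      field_simp
      ring
    · intro y _
      have h1 := lm_pos y
      have h2 := FF_pos y
      have h3 := nu_pos y
      have h4 := cc_pos y
      positivity
    · have h1 : Tendsto (fun x => lm x * nu x / (nu x ^ 2 + cc x)) atBot (𝓝 0) := by
        refine tendsto_frac_bot.congr fun x => ?_
        rw [b_eq]
      have h2 : Tendsto (fun x => lm x * (1 / 10) / (nu x ^ 2 + cc x)) atBot (𝓝 0) := by
        refine squeeze_zero' (Eventually.of_forall fun x => ?_) ?_ tendsto_lm_bot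
        · have h1 := lm_pos x
          have h4 := cc_pos x
          positivity
        · filter_upwards [eventually_le_atBot 0] with x hx
          have h1 := nu_pos x
          have h2 := lm_pos x
          have h3 : 1 ≤ nu x ^ 2 + cc x := by rw [← b_eq]; nlinarith
          have h4 : lm x * (1 / 10) / (nu x ^ 2 + cc x) ≤ lm x * (1 / 10) :=
            div_le_self (by positivity) h3
          linarith
      have h3 := (h1.add h2).sub tendsto_t_bot
      simp only [add_zero, sub_zero] at h3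
      refine h3.congr fun x => ?_
      ring
  linarith

theorem r2_lt (x : ℝ) : r2 x < 1 / 10 := by
  have h := t_lt_frac x
  have hb : 0 < nu x ^ 2 + cc x := by have := cc_pos x; positivity
  rw [lt_div_iff₀ hb, ← r_mul_lm, mul_right_comm, mul_comm (r x * _)] at h
  have h2 := lt_of_mul_lt_mul_left h (lm_pos x).le
  unfold r2
  rw [b_eq]
  linarith

end Vale.Agent.P254.H156
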